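import Vale.Agent.P181.Final

namespace Vale.Agent.Results.P181.FoulkesWideRange

open Vale.Agent.P181

/-- **Foulkes' multiplicity inequality for two infinite families of partitions.**
For `1 ≤ a ≤ b`, `V = ℂ^(n+2)` and every weight `lam = (lam 0, lam 1, …)` such that either the second
entry `lam 1` is at most `a`, or the sum of all entries after the first one plus the second entry is
at most `2 b + 1`, the multiplicity of `S_lam V` in `Sym^a (Sym^b V)` is at most its multiplicity in
`Sym^b (Sym^a V)`. -/
theorem result (n a b : ℕ) (ha : 1 ≤ a) (hab : a ≤ b) (lam : Fin (n+2) → ℕ)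
    (hlam : lam 1 ≤ a ∨ (∑ i : Fin (n+1), lam i.succ) + lam 1 ≤ 2 * b + 1) :
    mult (n+2) a b lam ≤ mult (n+2) b a lam :=
  mult_final ha (mul_comm a b) hab (le_refl a) lam hlam

end Vale.Agent.Results.P181.FoulkesWideRange
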