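import Vale.Agent.P181.Final

namespace Vale.Agent.Results.P181.GeneralizedFoulkes

open Vale.Agent.P181

/-- **The generalized (strengthened) Foulkes inequality for two infinite families of partitions.**
Let `a b = c d` with `1 ≤ a ≤ c` and `a ≤ d`, and `V = ℂ^(n+2)`.  For every weight
`lam = (lam 0, lam 1, …)` such that either `lam 1 ≤ d`, or the sum of all entries after the first one
plus `lam 1` is at most `2 c + 1`, the multiplicity of `S_lam V` in `Sym^a (Sym^b V)` is at most its
multiplicity in `Sym^c (Sym^d V)`.  The case `c = b`, `d = a` is Foulkes' inequality. -/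
theorem result (n a b c d : ℕ) (ha : 1 ≤ a) (habcd : a * b = c * d) (hac : a ≤ c) (had : a ≤ d)
    (lam : Fin (n+2) → ℕ)
    (hlam : lam 1 ≤ d ∨ (∑ i : Fin (n+1), lam i.succ) + lam 1 ≤ 2 * c + 1) :
    mult (n+2) a b lam ≤ mult (n+2) c d lam :=
  mult_final ha habcd hac had lam hlam

end Vale.Agent.Results.P181.GeneralizedFoulkes
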