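import Vale.Agent.P181.Stability

namespace Vale.Agent.Results.P181.SecondRowReduction

open Vale.Agent.P181

/-- **Reduction of Foulkes' conjecture to partitions with second part at least `b`.**
Fix `a ≤ b` and `V = ℂ^(n+2)`.  If Foulkes' multiplicity inequality holds for all pairs `(a, c)`
with `a ≤ c < b` (all weights), then it holds for the pair `(a, b)` at every weight `mu` whose
second entry is smaller than `b`.  Moreover (inner stability) for `lam 1 ≤ c` the multiplicity of
`lam` in `Sym^a (Sym^c V)` equals that of `lam + a t e_0` in `Sym^a (Sym^(c+t) V)`. -/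
theorem result (n a b : ℕ) (hab : a ≤ b) :
    ((∀ c, a ≤ c → c < b → ∀ lam : Fin (n+2) → ℕ, mult (n+2) a c lam ≤ mult (n+2) c a lam) →
      ∀ mu : Fin (n+2) → ℕ, mu 1 < b → mult (n+2) a b mu ≤ mult (n+2) b a mu) ∧
    (∀ (c t : ℕ) (lam : Fin (n+2) → ℕ), lam 1 ≤ c →
      mult (n+2) a (c+t) (fun k => lam k + if k = 0 then a * t else 0) = mult (n+2) a c lam) := by
  refine ⟨fun H mu hmu => ?_, fun c t lam hlam => mult_inner t lam hlam⟩
  rcases Nat.eq_or_lt_of_le hab with rfl | hlt
  · exact le_refl _
  · have hc : max a (mu 1) < b := max_lt hlt hmu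
    exact foulkes_reduce (le_of_lt hc) mu (le_max_right _ _) (H _ (le_max_left _ _) hc)

end Vale.Agent.Results.P181.SecondRowReduction
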