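import Vale.Agent.P181.Stable

namespace Vale.Agent.Results.P181.StableRange

open Vale.Agent.P181

/-- **Foulkes' multiplicity inequality in the stable range.**
For `a ≤ b`, `V = ℂ^(n+2)` and every weight `lam` whose entries after the first one have sum at
most `b`, the multiplicity of `S_lam V` in `Sym^a (Sym^b V)` is at most its multiplicity in
`Sym^b (Sym^a V)`. -/
theorem result (n a b : ℕ) (hab : a ≤ b) (lam : Fin (n+2) → ℕ)
    (hlam : ∑ i : Fin (n+1), lam i.succ ≤ b) :
    mult (n+2) a b lam ≤ mult (n+2) b a lam := by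
  obtain ⟨t, rfl⟩ := Nat.exists_eq_add_of_le hab
  apply mult_stable t lam
  rwa [tl_eq_sum_succ]

end Vale.Agent.Results.P181.StableRange
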